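import Vale.Agent.P032.S5.H913.Sides

/-!
# P032: side events, what happens on a circle that passes a two-pair point

`Irr.side_split` : the two half branches at `y` of any unit circle through a two-pair point `y` with
the pairs `{p, q}`, `{r, s}` have palettes inside `{p, r}` and `{q, s}` (or inside `{p, s}` and
`{q, r}`).
-/

open Set Filter Topology Metric

noncomputable section

namespace Vale.Agent.P032.Six

variable {k : ℕ} {U : Fin k → Set ℂ} {T : ℂ → Set (Fin k)}

/-- the half branch `τ` at `y` of the unit circle about `z` has palettes inside `X` -/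
def Br (T : ℂ → Set (Fin k)) (z y : ℂ) (τ : ℝ) (X : Set (Fin k)) : Prop :=
  ∀ᶠ t : ℝ in 𝓝[>] 0, T (z + (y - z) * cis (τ * t)) ⊆ X

/-- an arc of the pair `{p, q}` of `y`, seen from a circle through `y`: on one half branch `p` is
absent, on the other one `q` is absent -/
theorem Irr.br_one (h : Irr U T) {y z g : ℂ} {p q r s : Fin k} (hy : DPt T y p q r s)
    (hg : Arc T y g {p, q}) (hz : dist y z = 1) (h1 : z ≠ g) (h2 : z + g ≠ 2 * y) :
    ∃ τ : ℝ, (τ = 1 ∨ τ = -1) ∧
      (∀ᶠ t : ℝ in 𝓝[>] 0, p ∉ T (z + (y - z) * cis (τ * t))) ∧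
      (∀ᶠ t : ℝ in 𝓝[>] 0, q ∉ T (z + (y - z) * cis (-τ * t))) := by
  have hyg : dist y g = 1 := by rw [dist_comm]; exact hg.1
  obtain ⟨τ, hτ, -, ho, hi⟩ := branch_sides hz hyg h1 h2
  have key : ∀ {i j : Fin k}, Sd U g y i j →
      (∀ᶠ t : ℝ in 𝓝[>] 0, i ∉ T (z + (y - z) * cis (τ * t))) ∧
      (∀ᶠ t : ℝ in 𝓝[>] 0, j ∉ T (z + (y - z) * cis (-τ * t))) := by
    intro i j hs
    constructor
    · filter_upwards [(tendsto_arc z y τ).eventually hs, ho] with t k1 k2 k3
      exact k1.1 k2 (h.sub _ k3)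
    · filter_upwards [(tendsto_arc z y (-τ)).eventually hs, hi] with t k1 k2 k3
      exact k1.2 k2 (h.sub _ k3)
  rcases h.sides hy hg.1 with hs | hs
  · exact ⟨τ, hτ, (key (h.sd_center hg hs)).1, (key (h.sd_center hg hs)).2⟩
  · have k1 := key (h.sd_center (by rw [pair_comm]; exact hg) hs)
    refine ⟨-τ, ?_, ?_, ?_⟩
    · rcases hτ with rfl | rfl
      · right; rfl
      · left; norm_num
    · exact k1.2
    · rw [neg_neg]; exact k1.1

/-- **Side split**: any unit circle through a two-pair point `y` with the pairs `{p, q}`, `{r, s}`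
crosses it from a `{p, r}`-side to a `{q, s}`-side (or from `{p, s}` to `{q, r}`) -/
theorem Irr.side_split (h : Irr U T) {y z : ℂ} {p q r s : Fin k} (hy : DPt T y p q r s)
    (hz : dist y z = 1) : ∃ X Y : Set (Fin k),
      ((X = {p, r} ∧ Y = {q, s}) ∨ (X = {p, s} ∧ Y = {q, r})) ∧
      ∃ τ : ℝ, (τ = 1 ∨ τ = -1) ∧ Br T z y τ X ∧ Br T z y (-τ) Y := by
  obtain ⟨g0, hg0⟩ := hy.arc1
  obtain ⟨g, hg, hgz, hgz2⟩ := hg0.exists_off_line (y := z)
  obtain ⟨g0', hg0'⟩ := hy.arc2
  obtain ⟨g', hg', hgz', hgz2'⟩ := hg0'.exists_off_line (y := z)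
  obtain ⟨τ, hτ, e1, e2⟩ := h.br_one hy hg hz hgz.symm (by rw [add_comm]; exact hgz2)
  obtain ⟨σ, hσ, e3, e4⟩ := h.br_one hy.swap hg' hz hgz'.symm (by rw [add_comm]; exact hgz2')
  have hnhd : ∀ ρ : ℝ, ∀ᶠ t : ℝ in 𝓝[>] 0,
      T (z + (y - z) * cis (ρ * t)) ⊆ {p, q, r, s} := by
    intro ρ
    have := (tendsto_arc z y ρ).eventually (h.nhd y)
    rwa [hy.pal] at this
  -- `p` absent on the branch `τ`, `q` absent on `-τ`; `r` absent on `σ`, `s` absent on `-σ`
  have hcase : σ = τ ∨ σ = -τ := by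
    rcases hτ with rfl | rfl <;> rcases hσ with rfl | rfl
    · exact Or.inl rfl
    · exact Or.inr rfl
    · right; norm_num
    · exact Or.inl rfl
  have hτ' : -τ = 1 ∨ -τ = -1 := by
    rcases hτ with rfl | rfl
    · right; rfl
    · left; norm_num
  rcases hcase with rfl | rfl
  · refine ⟨{p, r}, {q, s}, Or.inl ⟨rfl, rfl⟩, -σ, hτ', ?_, ?_⟩
    · show ∀ᶠ t : ℝ in 𝓝[>] 0, T (z + (y - z) * cis (-σ * t)) ⊆ {p, r}
      filter_upwards [e2, e4, hnhd (-σ)] with t k1 k2 k3 i hi
      rcases k3 hi with rfl | rfl | rfl | h6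
      · simp
      · exact absurd hi k1
      · simp
      · rw [mem_singleton_iff] at h6; subst h6; exact absurd hi k2
    · show ∀ᶠ t : ℝ in 𝓝[>] 0, T (z + (y - z) * cis (- -σ * t)) ⊆ {q, s}
      rw [neg_neg]
      filter_upwards [e1, e3, hnhd σ] with t k1 k2 k3 i hi
      rcases k3 hi with rfl | rfl | rfl | h6
      · exact absurd hi k1
      · simp
      · exact absurd hi k2
      · rw [mem_singleton_iff] at h6; subst h6; simp
  · rw [neg_neg] at e4
    refine ⟨{p, s}, {q, r}, Or.inr ⟨rfl, rfl⟩, -τ, hτ', ?_, ?_⟩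
    · show ∀ᶠ t : ℝ in 𝓝[>] 0, T (z + (y - z) * cis (-τ * t)) ⊆ {p, s}
      filter_upwards [e2, e3, hnhd (-τ)] with t k1 k2 k3 i hi
      rcases k3 hi with rfl | rfl | rfl | h6
      · simp
      · exact absurd hi k1
      · exact absurd hi k2
      · rw [mem_singleton_iff] at h6; subst h6; simp
    · show ∀ᶠ t : ℝ in 𝓝[>] 0, T (z + (y - z) * cis (- -τ * t)) ⊆ {q, r}
      rw [neg_neg]
      filter_upwards [e1, e4, hnhd τ] with t k1 k2 k3 i hi
      rcases k3 hi with rfl | rfl | rfl | h6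
      · exact absurd hi k1
      · simp
      · simp
      · rw [mem_singleton_iff] at h6; subst h6; exact absurd hi k2

/-- **Third centre rule**: if all palettes on `S(x)` near `y` contain `t`, then only `x` and its
antipode among the points of `S(y)` can have the colour `t` -/
theorem Irr.third (h : Irr U T) {x y v : ℂ} {t : Fin k} (hxy : dist y x = 1)
    (ht : ∀ᶠ q in 𝓝[sphere x 1] y, t ∈ T q) (hv : dist y v = 1) (htv : t ∈ T v) :
    v = x ∨ v + x = 2 * y :=
  h.mx.partner_line hxy (ht.mono fun q hq => h.sub q hq) hv (h.sub v htv)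

/-- near a two-pair point `y` no colour `t` of `y` is in all palettes of a circle through `y` -/
theorem Irr.no_common (h : Irr U T) {y z : ℂ} {p q r s t : Fin k} (hy : DPt T y p q r s)
    (hz : dist y z = 1) (ht : ∀ᶠ w in 𝓝[sphere z 1] y, t ∈ T w) : False := by
  have hty : t ∈ T y := by
    have := ht.self_of_nhdsWithin (show y ∈ sphere z 1 from hz)
    exact this
  -- an arc of `y` with the colour `t`
  have key : ∀ {a b c d : Fin k}, DPt T y a b c d → (t = a ∨ t = b) → False := by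
    intro a b c d hd hab
    obtain ⟨g0, hg0⟩ := hd.arc1
    obtain ⟨g, hg, hgz, hgz2⟩ := hg0.exists_off_line (y := z)
    have htg : t ∈ T g := by
      rw [hg.mem]
      rcases hab with rfl | rfl <;> simp
    rcases h.third hz ht (by rw [dist_comm]; exact hg.1) htg with h1 | h1
    · exact hgz h1
    · exact hgz2 h1
  rw [hy.pal] at hty
  rcases hty with h1 | h1 | h1 | h1
  · exact key hy (Or.inl h1)
  · exact key hy (Or.inr h1)
  · exact key hy.swap (Or.inl h1)
  · rw [mem_singleton_iff] at h1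
    exact key hy.swap (Or.inr h1)

end Vale.Agent.P032.Six
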